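import Vale.Agent.P088.R2.H455.G.Def
import Vale.Agent.P088.H798.UTop

/-!
# P088, joint theorem: affine change of variables of a deformation and of a connection
-/

open MeasureTheory Set
open scoped ContDiff Matrix

noncomputable section

namespace Vale.Agent.P088.R2.H238.V

open Vale.Agent.P088.LR Vale.Agent.P088.LR.U Vale.Agent.P088.LR.H158 Vale.Agent.P088.LR.CF
open Vale.Agent.P088.HY.H794 Vale.Agent.P088.R2.H455.T

variable {n N : ℕ}

section aff

variable {M : Matrix (Fin n) (Fin n) ℝ}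

/-- The displacement in the old coordinates. -/
def wb (M : Matrix (Fin n) (Fin n) ℝ) (w : V n → V n) (x : V n) : V n := M *ᵥ w (ai M x)

theorem add_wb (hM : M.det ≠ 0) (w : V n → V n) (x : V n) :
    x + wb M w x = ap M (ai M x + w (ai M x)) := by
  unfold wb ap
  rw [show ai M x + w (ai M x) - hf = (ai M x - hf) + w (ai M x) by abel, Matrix.mulVec_add]
  have : M *ᵥ (ai M x - hf) = x := ap_ai hM x
  rw [this]

theorem wb_ml (w : V n → V n) : wb M w = fun x => ml M (w (ai M x)) := by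
  funext x; rw [ml_apply]; rfl

theorem wb_sm {w : V n → V n} (hw : ContDiff ℝ ∞ w) : ContDiff ℝ ∞ (wb M w) := by
  rw [wb_ml]
  exact (ml M).contDiff.comp (hw.comp (contDiff_ai M))

theorem jm_wb (hM : M.det ≠ 0) {w : V n → V n} (hw : ContDiff ℝ ∞ w) (x : V n) :
    jm (wb M w) x = M * jm w (ai M x) * M⁻¹ := by
  have hMu : IsUnit M.det := hM.isUnit
  have hwd : Differentiable ℝ w := hw.differentiable (by simp)
  have h1 : ∀ j, pd j (wb M w) x = M *ᵥ (∑ k, M⁻¹ k j • pd k w (ai M x)) := by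
    intro j
    rw [wb_ml]
    have h3 : Differentiable ℝ (fun y => w (ai M y)) :=
      hwd.comp ((contDiff_ai M).differentiable (by simp))
    unfold pd
    have h4 := (ml M).hasFDerivAt.comp x (h3 x).hasFDerivAt
    rw [show (fun x => ml M (w (ai M x))) = (ml M) ∘ fun x => w (ai M x) from rfl, h4.fderiv,
      ContinuousLinearMap.comp_apply, ml_apply]
    congr 1
    exact pd_ai j hwd x
  ext i j
  have h5 : M * jm w (ai M x) * M⁻¹ =
      1 + M * (Matrix.of fun a b => pd b w (ai M x) a) * M⁻¹ := by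
    have h6 : jm w (ai M x) = 1 + (Matrix.of fun a b => pd b w (ai M x) a) := rfl
    rw [h6, Matrix.mul_add, Matrix.add_mul, Matrix.mul_one, Matrix.mul_nonsing_inv M hMu]
  rw [h5, Matrix.add_apply]
  unfold jm
  rw [h1 j]
  congr 1
  simp only [Matrix.mulVec, dotProduct, Matrix.mul_apply, Finset.sum_apply, Pi.smul_apply,
    smul_eq_mul, Finset.mul_sum, Finset.sum_mul, Matrix.of_apply]
  rw [Finset.sum_comm]
  refine Finset.sum_congr rfl fun a _ => Finset.sum_congr rfl fun b _ => ?_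
  ring

theorem dif_wb (hM : M.det ≠ 0) {Ω : Set (V n)} {w K : V n → V n} (hD : Dif (ap M ⁻¹' Ω) w K) :
    Dif Ω (wb M w) fun x => ap M (K (ai M x)) := by
  refine ⟨wb_sm hD.sw, (contDiff_ap M).comp (hD.sK.comp (contDiff_ai M)), ?_, ?_, ?_, ?_⟩
  · intro x
    show ap M (K (ai M (x + wb M w x))) = x
    rw [add_wb hM, ai_ap hM, hD.l, ap_ai hM]
  · intro y
    show ap M (K (ai M y)) + wb M w (ap M (K (ai M y))) = y
    rw [add_wb hM, ai_ap hM, hD.r, ap_ai hM]
  · intro x hx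
    show M *ᵥ w (ai M x) = 0
    rw [hD.z, Matrix.mulVec_zero]
    show ¬ (ap M (ai M x) ∈ Ω)
    rwa [ap_ai hM]
  · intro x
    rw [jm_wb hM hD.sw, Matrix.det_mul, Matrix.det_mul, Matrix.det_nonsing_inv,
      Ring.inverse_eq_inv']
    have h1 : M.det * (jm w (ai M x)).det * M.det⁻¹ = (jm w (ai M x)).det := by
      field_simp
    rw [h1]
    exact hD.dp _

theorem iso_wb (hM : M.det ≠ 0) {κ : ℝ} (hκ : κ ≠ 0) {w : V n → V n} (hw : ContDiff ℝ ∞ w)
    {g₁ g₂ : MF n} (h : ∀ y, gsr κ M g₂ y = (jm w y)ᵀ * gsr κ M g₁ (y + w y) * jm w y) (x : V n) :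
    g₂ x = (jm (wb M w) x)ᵀ * g₁ (x + wb M w x) * jm (wb M w) x := by
  have hMu : IsUnit M.det := hM.isUnit
  have h1 := h (ai M x)
  unfold gsr at h1
  rw [ap_ai hM, ← add_wb hM] at h1
  rw [jm_wb hM hw]
  have h2 : Mᵀ * g₂ x * M = (jm w (ai M x))ᵀ * (Mᵀ * g₁ (x + wb M w x) * M) *
      jm w (ai M x) := by
    rw [Matrix.mul_smul, Matrix.smul_mul] at h1
    exact smul_right_injective _ hκ h1
  have h3 : (M⁻¹)ᵀ * (Mᵀ * g₂ x * M) * M⁻¹ = g₂ x := by
    calc (M⁻¹)ᵀ * (Mᵀ * g₂ x * M) * M⁻¹ = ((M⁻¹)ᵀ * Mᵀ) * g₂ x * (M * M⁻¹) := by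
          simp only [Matrix.mul_assoc]
      _ = g₂ x := by
          rw [← Matrix.transpose_mul, Matrix.mul_nonsing_inv M hMu, Matrix.transpose_one,
            Matrix.one_mul, Matrix.mul_one]
  rw [← h3, h2, Matrix.transpose_mul, Matrix.transpose_mul]
  simp only [Matrix.mul_assoc]

/-- A connection in the old coordinates. -/
theorem pfo_old (hM : 0 < M.det) (A : Cn n N) (i : Fin n) (y : V n) :
    A i (ap M y) = ∑ j, ((M⁻¹ j i : ℝ) : ℂ) • pfo A (ap M) j y := by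
  have h := pfo_back738 (dif_wM hM) A i (ap M y)
  rw [add_wM, ai_ap hM.ne'] at h
  rw [h]
  refine Finset.sum_congr rfl fun j _ => ?_
  rw [jm_wM]

/-- The pull-back in the old coordinates. -/
theorem pb_wb (hM : 0 < M.det) {w : V n → V n} (hw : ContDiff ℝ ∞ w) (A : Cn n N) (i : Fin n)
    (x : V n) : pb (wb M w) A i x =
      ∑ k, ((M⁻¹ k i : ℝ) : ℂ) • pb w (pfo A (ap M)) k (ai M x) := by
  unfold pb
  rw [jm_wb hM.ne' hw, add_wb hM.ne']
  have h1 : ∀ j, A j (ap M (ai M x + w (ai M x))) =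
      ∑ l, ((M⁻¹ l j : ℝ) : ℂ) • pfo A (ap M) l (ai M x + w (ai M x)) := fun j =>
    pfo_old hM A j _
  simp only [h1, Finset.smul_sum, smul_smul]
  rw [Finset.sum_comm]
  conv_rhs => rw [Finset.sum_comm]
  refine Finset.sum_congr rfl fun l _ => ?_
  rw [← Finset.sum_smul, ← Finset.sum_smul]
  congr 1
  have h2 : M⁻¹ * (M * jm w (ai M x) * M⁻¹) = jm w (ai M x) * M⁻¹ := by
    rw [Matrix.mul_assoc M, ← Matrix.mul_assoc, Matrix.nonsing_inv_mul M hM.ne'.isUnit,
      Matrix.one_mul]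
  have h3 := congrFun (congrFun h2 l) i
  rw [Matrix.mul_apply, Matrix.mul_apply] at h3
  have h4 : ∑ j, (((M * jm w (ai M x) * M⁻¹) j i : ℝ) : ℂ) * ((M⁻¹ l j : ℝ) : ℂ) =
      ((∑ j, M⁻¹ l j * (M * jm w (ai M x) * M⁻¹) j i : ℝ) : ℂ) := by
    push_cast
    exact Finset.sum_congr rfl fun j _ => mul_comm _ _
  rw [h4, h3]
  push_cast
  exact Finset.sum_congr rfl fun j _ => mul_comm _ _

/-- The gauge relation in the old coordinates. -/
theorem gau_wb (hM : 0 < M.det) {w : V n → V n} (hw : ContDiff ℝ ∞ w) {A₁ A₂ : Cn n N}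
    {U : MC n N} (hU : SmC U) {y : V n}
    (h : ∀ k, pfo A₂ (ap M) k y = (U y)ᴴ * pb w (pfo A₁ (ap M)) k y * U y + (U y)ᴴ * pdm k U y)
    (i : Fin n) {x : V n} (hx : ai M x = y) :
    A₂ i x = (U (ai M x))ᴴ * pb (wb M w) A₁ i x * U (ai M x) +
      (U (ai M x))ᴴ * pdm i (fun x => U (ai M x)) x := by
  have h0 := pfo_old hM A₂ i y
  rw [← hx, ap_ai hM.ne'] at h0
  have h1 : pdm i (fun x => U (ai M x)) x = ∑ k, ((M⁻¹ k i : ℝ) : ℂ) • pdm k U (ai M x) := by
    have h2 := pdm_comp738 (dif_wM hM).sw hU i x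
    simp only [add_wM, jm_wM] at h2
    exact h2
  rw [h0, pb_wb hM hw, h1]
  subst hx
  simp only [h, smul_add, Finset.sum_add_distrib, Finset.mul_sum, Finset.sum_mul,
    Matrix.mul_smul, Matrix.smul_mul]

end aff

/-! ### a constant factor -/

theorem lav_const {s : MF n} (hs : SmM s) {A : Cn n N} (hA : SmU A) (c : ℝ)
    {u : V n → Fin N → ℂ} (hu : ContDiff ℝ ∞ u) (x : V n) :
    lav (fun y => c • s y) A u x = (c : ℂ) • lav s A u x := by
  unfold lav
  rw [Finset.smul_sum]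
  refine Finset.sum_congr rfl fun i _ => ?_
  have hF : ContDiff ℝ ∞ (Vale.Agent.P088.H924.Gf s A u i) :=
    Vale.Agent.P088.H924.contDiff_Gf hs hA hu i
  have h1 : (fun y => ∑ j, (((c • s y) i j : ℝ) : ℂ) • cd A j u y) =
      fun y => (c : ℂ) • Vale.Agent.P088.H924.Gf s A u i y := by
    funext y
    unfold Vale.Agent.P088.H924.Gf
    rw [Finset.smul_sum]
    refine Finset.sum_congr rfl fun j _ => ?_
    rw [Matrix.smul_apply, smul_eq_mul, Complex.ofReal_mul, smul_smul]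
  rw [h1, Vale.Agent.P088.H798.cd_csmul A _ hF i x]
  rfl

theorem ea_const (Ω : Set (V n)) (s : MF n) (A : Cn n N) (c : ℝ) (u v : V n → Fin N → ℂ) :
    ea Ω (fun y => c • s y) A u v = (c : ℂ) * ea Ω s A u v := by
  unfold ea
  rw [← integral_const_mul]
  refine integral_congr_ae (Filter.Eventually.of_forall fun y => ?_)
  simp only [Finset.mul_sum]
  refine Finset.sum_congr rfl fun i _ => Finset.sum_congr rfl fun j _ => ?_
  rw [Matrix.smul_apply, smul_eq_mul, Complex.ofReal_mul, mul_assoc]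

theorem orU_const {Ω : Set (V n)} {s₁ s₂ : MF n} (hs₁ : SmM s₁) (hs₂ : SmM s₂) {A₁ A₂ : Cn n N}
    (hA₁ : SmU A₁) (hA₂ : SmU A₂) {c : ℝ} (hc : c ≠ 0)
    (h : OrU Ω (fun y => c • s₁ y) A₁ (fun y => c • s₂ y) A₂) : OrU Ω s₁ A₁ s₂ A₂ := by
  intro u v hu hv h1 h2
  have h3 := h u v hu hv (fun x hx => by rw [lav_const hs₁ hA₁ c hu, h1 x hx, smul_zero])
    (fun x hx => by rw [lav_const hs₂ hA₂ c hv, h2 x hx, smul_zero])
  rw [ea_const, ea_const] at h3
  exact mul_left_cancel₀ (by exact_mod_cast hc) h3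

end Vale.Agent.P088.R2.H238.V
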