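import Vale.Agent.P088.R2.H238.V.Gf
import Vale.Agent.P088.H159.USm

/-!
# P088, row V-CG: `RowJR → RowPEQ → RowCG`
-/

open MeasureTheory Set
open scoped ContDiff Matrix

noncomputable section

namespace Vale.Agent.P088.PJ.H238

open Vale.Agent.P088.LR Vale.Agent.P088.LR.U Vale.Agent.P088.LR.H158 Vale.Agent.P088.LR.H925
open Vale.Agent.P088.HY (VV Bs Bn Un DB)

variable {n N : ℕ}

theorem qF_one (A : Cn n N) (F : MC n N) (i : Fin n) :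
    qF (fun _ => (1 : Matrix (Fin n) (Fin n) ℝ)) A F i = KF A F i := by
  funext x
  show ∑ j, (((1 : Matrix (Fin n) (Fin n) ℝ) i j : ℝ) : ℂ) • KF A F j x = KF A F i x
  rw [Finset.sum_eq_single i]
  · rw [Matrix.one_apply_eq, Complex.ofReal_one, one_smul]
  · intro j _ hj
    rw [Matrix.one_apply_ne (Ne.symm hj), Complex.ofReal_zero, zero_smul]
  · intro h; exact absurd (Finset.mem_univ i) h

theorem KF_off {Ω : Set (V n)} (hi : interior (closure Ω) = Ω) {A₁ A : Cn n N}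
    (hA : ∀ i, ∀ x ∉ Ω, A i x = A₁ i x) {F₁ F : MC n N} (hF₁ : SmC F₁) (hF : SmC F)
    (h : ∀ x ∉ Ω, F x = F₁ x) (i : Fin n) {x : V n} (hx : x ∉ Ω) :
    KF A F i x = KF A₁ F₁ i x := by
  unfold KF
  rw [H634.cdC_off634 hi hA hF₁ hF h i hx, h x hx]

/-- The reduced data of one pair. -/
theorem dt_of (hPEQ : RowPEQ) {k : ℕ} {δ₀ δs : ℝ}
    (hsmu : ∀ (s : MF n) (A : Cn n N) (F : MC n N), SmM s → SmU A → SmC F →
      (∀ i j, Cl k δs (fun x => s x i j - (1 : Matrix (Fin n) (Fin n) ℝ) i j)) →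
      (∀ i, ClC k δs (A i)) → ClC (k + 1) δs (fun x => F x - 1) →
      SmC (PF F) ∧ (∀ i j, SmC (TF s F i j)) ∧ (∀ i, SmC (qF s A F i)) ∧
      ClC k δ₀ (fun x => PF F x - 1) ∧ (∀ i, ClC k δ₀ (qF s A F i)) ∧
      ∀ i j, ClC k δ₀ (fun x => TF s F i j x - if i = j then 1 else 0))
    (hδs : 0 ≤ δs) {Ω : Set (V n)} (hΩ : IsOpen Ω) {s : MF n} (hs : SmM s)
    (hsy : ∀ x, (s x).IsSymm) (hone : ∀ x ∉ CF.bal n, s x = 1)
    (hsδ : ∀ i j, Cl k δ₀ (fun x => s x i j - (1 : Matrix (Fin n) (Fin n) ℝ) i j))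
    {A : Cn n N} (hA : SmU A) (hAc : ∀ i, ClC k δs (A i))
    {F : MC n N} (hF : SmC F) (hu : ∀ x, IsUnit (F x).det)
    (hFc : ClC (k + 1) δs (fun x => F x - 1)) (hL : ∀ x ∈ Ω, LaC s A F x = 0)
    (hdq : ∀ x ∈ ph 4 ⁻¹' Ω, ∑ i, pdm i (qF (sS s) (aS A) (fS F) i) x = 0) :
    Dt k δ₀ (ph 4 ⁻¹' Ω) (sS s) (PF (fS F)) (KF (aS A) (fS F)) := by
  have hs1 : SmM (fun _ : V n => (1 : Matrix (Fin n) (Fin n) ℝ)) := fun i j => contDiff_const
  have hc1 : ∀ i j, Cl k δs (fun _ : V n => (1 : Matrix (Fin n) (Fin n) ℝ) i j -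
      (1 : Matrix (Fin n) (Fin n) ℝ) i j) := by
    intro i j
    simp only [sub_self]
    exact H535.cl_le H535.cl_zero le_rfl hδs
  obtain ⟨a1, -, a3, a4, a5, -⟩ := hsmu _ (aS A) (fS F) hs1 (smU_aS hA) (smC_fS hF) hc1
    (fun i => clC_aS hA i (hAc i)) (clC_fS hF 1 hFc)
  have hLS : ∀ x ∈ ph 4 ⁻¹' Ω, LaC (sS s) (aS A) (fS F) x = 0 := by
    intro x hx
    rw [LaC_S hs hA hF, hL _ hx, smul_zero]
  refine ⟨smM_sS hs, fun x => hsy _, fun x hx => hone _ (bal_S hx), a1,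
    fun x => H634.PF_herm634 _ x, fun i => ?_, fun i x => H634.KF_anti634 _ _ i x,
    cl_sS hs hsδ, a4, fun i => ?_, hdq, ?_⟩
  · have h := a3 i
    rw [qF_one] at h
    exact h
  · have h := a5 i
    rw [qF_one] at h
    exact h
  · exact hPEQ (ph 4 ⁻¹' Ω) (hΩ.preimage (contDiff_ph 4).continuous) (sS s) (smM_sS hs)
      (fun x => hsy _) (aS A) (smU_aS hA) (fS F) (smC_fS hF) (fun x => hu _) hLS

/-- **Row V-CG.** -/
theorem rowCG (hJR : RowJR) (hPEQ : RowPEQ) : RowCG := by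
  intro n N hn hN
  obtain ⟨k, δ₀, hδ₀, hjr⟩ := hJR n N hn hN
  obtain ⟨δs, hδs, hsmu⟩ := H159.smu n N k δ₀ hδ₀
  obtain ⟨CI, εI, hCI, hεI, hinv⟩ := H91.inv n N (k + 1)
  obtain ⟨CZ, εZ, hCZ, hεZ, hz⟩ := clC_Zf n N k
  obtain ⟨ε, hε, f1, f2, f3, f4, f5⟩ : ∃ ε : ℝ, 0 < ε ∧ ε ≤ δs ∧ ε ≤ εI ∧ ε ≤ εZ ∧
      CZ * ε + CZ * ε ≤ δ₀ ∧ ε ≤ δ₀ := by
    refine ⟨min (min δs εI) (min (min εZ (δ₀ / (2 * CZ))) δ₀), by positivity,
      (min_le_left _ _).trans (min_le_left _ _), (min_le_left _ _).trans (min_le_right _ _),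
      (min_le_right _ _).trans ((min_le_left _ _).trans (min_le_left _ _)), ?_,
      (min_le_right _ _).trans (min_le_right _ _)⟩
    have h1 : min (min δs εI) (min (min εZ (δ₀ / (2 * CZ))) δ₀) ≤ δ₀ / (2 * CZ) :=
      (min_le_right _ _).trans ((min_le_left _ _).trans (min_le_right _ _))
    rw [le_div_iff₀ (by positivity)] at h1
    linarith
  refine ⟨k + 1, ε, hε, ?_⟩
  intro Ω hΩ hreg hΩb s₁ s hs₁ hs hsy₁ hsy hone₁ hoff hs₁c hsc A₁ A hA₁ hA hA₁0 hAoff hA₁c hAc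
    F₁ F X₁ X hF₁ hF hX₁ hX hFoff hXoff hF₁c hFc hX₁c hXc hL1 hL2 hLX1 hLX2 htr hOr
  have hΩbal : Ω ⊆ CF.bal n := by
    intro x hx
    have h1 : ∑ j, (x j - 1 / 2) ^ 2 ≤ 1 / 64 := hΩb hx
    show ∑ j, (x j - 1 / 2) ^ 2 ≤ 1 / 16
    linarith
  have hΩcube : Ω ⊆ cube n := (hΩbal.trans CF.bal_subset_core442).trans H129.core_subset_cube
  have hone : ∀ x ∉ CF.bal n, s x = 1 := fun x hx => by
    rw [hoff x fun h => hx (hΩbal h)]; exact hone₁ x hx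
  obtain ⟨iu1, is1, ic1⟩ := hinv F₁ hF₁ ε hε.le f2 hF₁c
  obtain ⟨iu, is, ic⟩ := hinv F hF ε hε.le f2 hFc
  -- the new domain
  obtain ⟨Ω', hΩ'⟩ : ∃ Ω' : Set (V n), Ω' = ph 4 ⁻¹' Ω := ⟨_, rfl⟩
  have hO' : IsOpen Ω' := by rw [hΩ']; exact hΩ.preimage (contDiff_ph 4).continuous
  have hreg' : interior (closure Ω') = Ω' := by rw [hΩ']; exact reg_S hreg
  have hsub' : Ω' ⊆ bl0 n := by rw [hΩ']; exact sub_S hΩb
  have hB' : Ω' ⊆ Bs n 2 := hsub'.trans bl0_Bs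
  have hmem : ∀ {x : V n}, x ∈ Ω' → ph 4 x ∈ Ω := fun {x} hx => by rw [hΩ'] at hx; exact hx
  have hnm : ∀ {x : V n}, x ∉ Ω' → ph 4 x ∉ Ω := fun {x} hx h => hx (by rw [hΩ']; exact h)
  have hbd : Bornology.IsBounded Ω' := by
    refine (Metric.isBounded_closedBall (x := (0 : V n)) (r := 1)).subset fun y hy => ?_
    have h1 : HY.sq y ≤ 1 / 4 := hsub' hy
    rw [mem_closedBall_zero_iff, pi_norm_le_iff_of_nonneg (by norm_num)]
    intro j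
    have h2 : y j ^ 2 ≤ 1 / 4 :=
      (Finset.single_le_sum (f := fun j => y j ^ 2) (fun _ _ => sq_nonneg _)
        (Finset.mem_univ j)).trans h1
    rw [Real.norm_eq_abs, ← sq_le_one_iff_abs_le_one]
    linarith
  -- equations in the new coordinates
  have hL1' : ∀ x ∈ Bs n 2, LaC (sS s₁) (aS A₁) (fS F₁) x = 0 := fun x hx => by
    rw [LaC_S hs₁ hA₁ hF₁, hL1 _ (cube_S hx), smul_zero]
  have hL2' : ∀ x ∈ Ω', LaC (sS s) (aS A) (fS F) x = 0 := fun x hx => by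
    rw [LaC_S hs hA hF, hL2 _ (hmem hx), smul_zero]
  have hLX1' : ∀ a, ∀ x ∈ Bs n 2, LaC (sS s₁) (aS A₁) (fS (X₁ a)) x = 0 := fun a x hx => by
    rw [LaC_S hs₁ hA₁ (hX₁ a), hLX1 a _ (cube_S hx), smul_zero]
  have hLX2' : ∀ a, ∀ x ∈ Ω', LaC (sS s) (aS A) (fS (X a)) x = 0 := fun a x hx => by
    rw [LaC_S hs hA (hX a), hLX2 a _ (hmem hx), smul_zero]
  have hOr' : OrU Ω' (sS s₁) (aS A₁) (sS s) (aS A) := by
    rw [hΩ']; exact orU_S hΩ hs₁ hs hA₁ hA hOr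
  -- the reduction
  have hsoff' : ∀ x ∉ Ω', sS s x = sS s₁ x := fun x hx => hoff _ (hnm hx)
  have hAoff' : ∀ i, ∀ x ∉ Ω', aS A i x = aS A₁ i x := fun i x hx => by
    unfold aS; rw [hAoff i _ (hnm hx)]
  have hFoff' : ∀ x ∉ Ω', fS F x = fS F₁ x := fun x hx => hFoff _ (hnm hx)
  obtain ⟨r1, r2, r3⟩ := H106.red Ω' hO' hbd hreg' (sS s₁) (sS s) (smM_sS hs₁) (smM_sS hs)
    (fun x => hsy₁ _) (fun x => hsy _) hsoff' (aS A₁) (aS A) (smU_aS hA₁) (smU_aS hA) hAoff'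
    (fS F₁) (fS F) (smC_fS hF₁) (smC_fS hF) (fun x => iu1 _) (fun x => iu _) hFoff'
    (fun x hx => hL1' x (hB' hx)) hL2' hOr'
  have hle : ∀ {m k : ℕ} {a b : ℝ} {P : MC n N}, ClC m a P → k ≤ m → a ≤ b → ClC k b P :=
    fun h hm hab a b => H535.cl_le (h a b) hm hab
  have D1 : Dt k δ₀ Ω' (sS s₁) (PF (fS F₁)) (KF (aS A₁) (fS F₁)) := by
    rw [hΩ'] at r1 ⊢
    exact dt_of hPEQ hsmu hδs.le hΩ hs₁ hsy₁ hone₁
      (fun i j => H535.cl_le (hs₁c i j) (Nat.le_succ k) f5) hA₁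
      (fun i => hle (hA₁c i) (Nat.le_succ k) f1) hF₁ iu1 (hle hF₁c le_rfl f1)
      (fun x hx => hL1 x (hΩcube hx)) r1
  have D2 : Dt k δ₀ Ω' (sS s) (PF (fS F)) (KF (aS A) (fS F)) := by
    rw [hΩ'] at r2 ⊢
    exact dt_of hPEQ hsmu hδs.le hΩ hs hsy hone
      (fun i j => H535.cl_le (hsc i j) (Nat.le_succ k) f5) hA
      (fun i => hle (hAc i) (Nat.le_succ k) f1) hF iu (hle hFc le_rfl f1) hL2 r2
  -- the coordinates
  have hZs1 : ∀ a, SmC (Zf F₁ (X₁ a) a) := fun a => smC_Zf hF₁ iu1 (hX₁ a) a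
  have hZs : ∀ a, SmC (Zf F (X a) a) := fun a => smC_Zf hF iu (hX a) a
  have hZc1 : ∀ a, ClC k (CZ * ε) (Zf F₁ (X₁ a) a) := fun a =>
    hz F₁ (X₁ a) a hF₁ (hX₁ a) ε hε.le f3 (hle hF₁c (Nat.le_succ k) le_rfl)
      (hle (hX₁c a) (Nat.le_succ k) le_rfl)
  have hZc : ∀ a, ClC k (CZ * ε) (Zf F (X a) a) := fun a =>
    hz F (X a) a hF (hX a) ε hε.le f3 (hle hFc (Nat.le_succ k) le_rfl)
      (hle (hXc a) (Nat.le_succ k) le_rfl)
  have hCε : 0 ≤ CZ * ε := by positivity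
  have hRP : RP k δ₀ Ω' (sS s₁) (sS s) (PF (fS F₁)) (PF (fS F)) (KF (aS A₁) (fS F₁))
      (KF (aS A) (fS F))
      (fun a y => ((y a : ℝ) : ℂ) • (1 : Matrix (Fin N) (Fin N) ℂ) + Zf F₁ (X₁ a) a y)
      (fun a y => Zf F (X a) a y - Zf F₁ (X₁ a) a y) := by
    refine ⟨hO', hreg', hsub', D1, D2, hsoff', ?_, ?_, ?_, ?_, ?_, ?_, ?_, ?_, ?_, ?_, r3⟩
    · intro x hx
      unfold PF
      rw [hFoff' x hx]
    · intro i x hx
      exact KF_off hreg' hAoff' (smC_fS hF₁) (smC_fS hF) hFoff' i hx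
    · intro a x hx
      show Zf F (X a) a x - Zf F₁ (X₁ a) a x = 0
      have h1 : fS (X a) x = fS (X₁ a) x := hXoff a _ (hnm hx)
      unfold Zf
      rw [hFoff' x hx, h1, sub_self]
    · intro a
      exact H705.UFin.SmC_add (smC_coo a) (hZs1 a)
    · intro a
      exact H705.UFin.SmC_sub (hZs a) (hZs1 a)
    · intro a
      have h1 : (fun x : V n => (((x a : ℝ) : ℂ) • (1 : Matrix (Fin N) (Fin N) ℂ) +
          Zf F₁ (X₁ a) a x) - (x a : ℂ) • 1) = Zf F₁ (X₁ a) a := by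
        funext x
        abel
      rw [h1]
      exact hle (hZc1 a) le_rfl (by linarith)
    · intro a α β
      exact H535.cl_le (H634.cl_sub634 (hZs a α β) (hZs1 a α β) (hZc a α β) (hZc1 a α β)) le_rfl f4
    · intro a x
      by_cases hx : x ∈ Ω'
      · have e1 := Zf_eq F (X a) a (hB' hx)
        have e2 := Zf_eq F₁ (X₁ a) a (hB' hx)
        have e3 : Zf F (X a) a x - Zf F₁ (X₁ a) a x =
            (4 : ℂ) • ((fS F x)⁻¹ * fS (X a) x) - (4 : ℂ) • ((fS F₁ x)⁻¹ * fS (X₁ a) x) := by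
          have e4 : Zf F (X a) a x - Zf F₁ (X₁ a) a x =
              (((x a : ℝ) : ℂ) • (1 : Matrix (Fin N) (Fin N) ℂ) + Zf F (X a) a x) -
              (((x a : ℝ) : ℂ) • (1 : Matrix (Fin N) (Fin N) ℂ) + Zf F₁ (X₁ a) a x) := by abel
          rw [e4, e1, e2]
          abel
        show ((Zf F (X a) a x - Zf F₁ (X₁ a) a x).trace).re = 0
        rw [e3, Matrix.trace_sub, Matrix.trace_smul, Matrix.trace_smul, smul_eq_mul, smul_eq_mul,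
          ← mul_sub]
        have h4 : (4 : ℂ) = ((4 : ℝ) : ℂ) := by norm_num
        rw [h4, Complex.re_ofReal_mul, Complex.sub_re]
        have h5 := htr _ (hmem hx) a
        have h6 : (((fS F x)⁻¹ * fS (X a) x).trace).re = (((fS F₁ x)⁻¹ * fS (X₁ a) x).trace).re := h5
        rw [h6, sub_self, mul_zero]
      · show ((Zf F (X a) a x - Zf F₁ (X₁ a) a x).trace).re = 0
        have h1 : fS (X a) x = fS (X₁ a) x := hXoff a _ (hnm hx)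
        unfold Zf
        rw [hFoff' x hx, h1, sub_self, Matrix.trace_zero, Complex.zero_re]
    · intro a x hx
      have h1 := MoC_congr (isOpen_Bs 2) (TP (sS s₁) (PF (fS F₁)))
        (kp (sS s₁) (KF (aS A₁) (fS F₁)))
        (Y := fun y => ((y a : ℝ) : ℂ) • (1 : Matrix (Fin N) (Fin N) ℂ) + Zf F₁ (X₁ a) a y)
        (Z := fun y => (4 : ℂ) • ((fS F₁ y)⁻¹ * fS (X₁ a) y) - (2 : ℂ) • 1)
        (fun y hy => Zf_eq F₁ (X₁ a) a hy) hx
      rw [h1]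
      exact MoC_lin (isOpen_Bs 2) (smM_sS hs₁) (fun x => hsy₁ _) (smU_aS hA₁) (smC_fS hF₁)
        (smC_fS (hX₁ a)) (fun x => iu1 _) hL1' (hLX1' a) hx
    · intro a x hx
      have h1 := MoC_congr hO' (TP (sS s) (PF (fS F))) (kp (sS s) (KF (aS A) (fS F)))
        (Y := fun y => (((y a : ℝ) : ℂ) • (1 : Matrix (Fin N) (Fin N) ℂ) + Zf F₁ (X₁ a) a y) +
          (Zf F (X a) a y - Zf F₁ (X₁ a) a y))
        (Z := fun y => (4 : ℂ) • ((fS F y)⁻¹ * fS (X a) y) - (2 : ℂ) • 1)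
        (fun y hy => by
          rw [← Zf_eq F (X a) a (hB' hy)]
          abel) hx
      rw [h1]
      exact MoC_lin hO' (smM_sS hs) (fun x => hsy _) (smU_aS hA) (smC_fS hF)
        (smC_fS (hX a)) (fun x => iu _) hL2' (hLX2' a) hx
  obtain ⟨c1, c2, c3⟩ := hjr Ω' _ _ _ _ _ _ _ _ hRP
  refine ⟨fun x => ?_, gauge_fin hA₁ hA hF₁ hF iu1 (fun x => ?_) (fun i x => ?_) hFoff⟩
  · have h1 := c1 (ps 4 x)
    unfold sS at h1
    rw [ph_ps four_ne] at h1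
    exact h1
  · have h1 := c2 (ps 4 x)
    rw [PF_S, PF_S, ph_ps four_ne] at h1
    exact h1
  · have h1 := c3 i (ps 4 x)
    rw [KF_S A hF, KF_S A₁ hF₁, ph_ps four_ne] at h1
    refine smul_right_injective _ ?_ h1
    norm_num

end Vale.Agent.P088.PJ.H238
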