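import Vale.Agent.P088.R2.H238.V.Sc
import Vale.Agent.P088.H106.UGAU
import Vale.Agent.P088.H106.URed
import Vale.Agent.P088.H91.UInv

/-!
# P088, row V-CG: cut-offs, the coordinates `Y_a`, linearity
-/

open MeasureTheory Set
open scoped ContDiff Matrix

noncomputable section

namespace Vale.Agent.P088.PJ.H238

open Vale.Agent.P088.LR Vale.Agent.P088.LR.U Vale.Agent.P088.LR.H158 Vale.Agent.P088.LR.H925
open Vale.Agent.P088.HY (VV Bs Bn Un DB)

variable {n N : ℕ}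

/-! ### linearity -/

theorem smC_lin {P Q : MC n N} (hP : SmC P) (hQ : SmC Q) (a b : ℂ) :
    SmC fun y => a • P y + b • Q y := fun α β =>
  (contDiff_const.mul (hP α β)).add (contDiff_const.mul (hQ α β))

theorem pdm_lin {P Q : MC n N} (hP : SmC P) (hQ : SmC Q) (a b : ℂ) (i : Fin n) (x : V n) :
    pdm i (fun y => a • P y + b • Q y) x = a • pdm i P x + b • pdm i Q x := by
  rw [H106.pdm_add (H705.UFin.SmC_smul contDiff_const hP) (H705.UFin.SmC_smul contDiff_const hQ),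
    H705.UFin.pdm_smul contDiff_const hP, H705.UFin.pdm_smul contDiff_const hQ, pd_const,
    pd_const, zero_smul, zero_smul, zero_add, zero_add]

theorem cdC_lin (A : Cn n N) {P Q : MC n N} (hP : SmC P) (hQ : SmC Q) (a b : ℂ) (i : Fin n)
    (x : V n) : cdC A i (fun y => a • P y + b • Q y) x = a • cdC A i P x + b • cdC A i Q x := by
  unfold cdC
  rw [pdm_lin hP hQ, Matrix.mul_add, Matrix.mul_smul, Matrix.mul_smul, smul_add, smul_add]
  abel

theorem LaC_lin {s : MF n} (hs : SmM s) {A : Cn n N} (hA : SmU A) {P Q : MC n N} (hP : SmC P)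
    (hQ : SmC Q) (a b : ℂ) (x : V n) :
    LaC s A (fun y => a • P y + b • Q y) x = a • LaC s A P x + b • LaC s A Q x := by
  have h1 : ∀ i, flC s A (fun y => a • P y + b • Q y) i =
      fun y => a • flC s A P i y + b • flC s A Q i y := by
    intro i
    funext y
    unfold flC
    rw [Finset.smul_sum, Finset.smul_sum, ← Finset.sum_add_distrib]
    refine Finset.sum_congr rfl fun j _ => ?_
    rw [cdC_lin A hP hQ, smul_add, smul_comm, smul_comm b]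
  unfold LaC
  rw [Finset.smul_sum, Finset.smul_sum, ← Finset.sum_add_distrib]
  refine Finset.sum_congr rfl fun i _ => ?_
  rw [h1 i, cdC_lin A (H106.smC_flC hs hA hP i) (H106.smC_flC hs hA hQ i)]

theorem MoC_congr {O : Set (V n)} (hO : IsOpen O) (T : Fin n → Fin n → MC n N)
    (κ : Fin n → MC n N) {Y Z : MC n N} (h : ∀ x ∈ O, Y x = Z x) {x : V n} (hx : x ∈ O) :
    MoC T κ Y x = MoC T κ Z x := by
  have h1 : ∀ j, ∀ y ∈ O, pdm j Y y = pdm j Z y := fun j y hy => pdm_congr hO h hy j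
  unfold MoC
  congr 1
  · refine Finset.sum_congr rfl fun i _ => pdm_congr hO (fun y hy => ?_) hx i
    exact Finset.sum_congr rfl fun j _ => by rw [h1 j y hy]
  · exact Finset.sum_congr rfl fun i _ => by rw [h1 i x hx]

/-! ### the cut-off -/

/-- The bump function. -/
def bmp (n : ℕ) : ContDiffBump (0 : V n) := ⟨2, 3, by norm_num, by norm_num⟩

/-- The cut-off. -/
def chc (y : V n) : ℂ := ((bmp n y : ℝ) : ℂ)

theorem chc_sm : ContDiff ℝ ∞ (chc : V n → ℂ) :=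
  Complex.ofRealCLM.contDiff.comp (bmp n).contDiff

theorem chc_cs : HasCompactSupport (chc : V n → ℂ) :=
  (bmp n).hasCompactSupport.comp_left (g := fun r : ℝ => (r : ℂ)) (by simp)

theorem chc_one {y : V n} (hy : y ∈ Bs n 2) : chc y = 1 := by
  have h1 : HY.sq y < 2 ^ 2 := hy
  have h2 : y ∈ Metric.closedBall (0 : V n) (bmp n).rIn := by
    show y ∈ Metric.closedBall (0 : V n) 2
    rw [mem_closedBall_zero_iff, pi_norm_le_iff_of_nonneg (by norm_num)]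
    intro j
    have h3 : y j ^ 2 < 2 ^ 2 := lt_of_le_of_lt
      (Finset.single_le_sum (f := fun j => y j ^ 2) (fun _ _ => sq_nonneg _) (Finset.mem_univ j)) h1
    rw [Real.norm_eq_abs]
    exact (abs_lt_of_sq_lt_sq h3 (by norm_num)).le
  unfold chc
  rw [(bmp n).one_of_mem_closedBall h2, Complex.ofReal_one]

theorem bdd_cs {f : V n → ℂ} (hf : ContDiff ℝ ∞ f) (hc : HasCompactSupport f) (k : ℕ) :
    ∃ B : ℝ, 0 < B ∧ Cl k B f := by
  have h : ∀ l : ℕ, ∃ C, ∀ x : V n, ‖iteratedFDeriv ℝ l f x‖ ≤ C := fun l =>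
    (hf.continuous_iteratedFDeriv (by exact_mod_cast le_top)).bounded_above_of_compact_support
      (hc.iteratedFDeriv l)
  choose C hC using h
  refine ⟨1 + ∑ l ∈ Finset.range (k + 1), |C l|, by positivity, fun l hl x => ?_⟩
  calc ‖iteratedFDeriv ℝ l f x‖ ≤ C l := hC l x
    _ ≤ |C l| := le_abs_self _
    _ ≤ ∑ l ∈ Finset.range (k + 1), |C l| :=
      Finset.single_le_sum (f := fun l => |C l|) (fun i _ => abs_nonneg _)
        (Finset.mem_range.mpr (by omega))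
    _ ≤ _ := by linarith

theorem coo2_sm (a : Fin n) : ContDiff ℝ ∞ (fun x : V n => ((x a : ℝ) : ℂ) + 2) :=
  (Complex.ofRealCLM.contDiff.comp (contDiff_apply ℝ ℝ a)).add contDiff_const

theorem zbS (n N k : ℕ) : ∃ C : ℝ, 0 < C ∧ ∀ (E R : MC n N) (a : Fin n), SmC E → SmC R →
    ∀ δ : ℝ, 0 ≤ δ → δ ≤ 1 → ClC k δ E → ClC k δ R →
    ClC k (C * δ) (fun x => chc x • (R x + (((x a : ℝ) : ℂ) + 2) • E x + E x * R x)) := by
  obtain ⟨B0, hB0, hb0⟩ := bdd_cs (n := n) chc_sm chc_cs k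
  have hb1 : ∀ a : Fin n, ∃ B : ℝ, 0 < B ∧
      Cl k B (fun x : V n => chc x * (((x a : ℝ) : ℂ) + 2)) :=
    fun a => bdd_cs (chc_sm.mul (coo2_sm a)) (chc_cs.mul_right) k
  choose B1 hB1 hb1 using hb1
  have hS : ∀ a, B1 a ≤ ∑ c, B1 c := fun a =>
    Finset.single_le_sum (f := B1) (fun c _ => (hB1 c).le) (Finset.mem_univ a)
  have hS0 : 0 ≤ ∑ c, B1 c := Finset.sum_nonneg fun c _ => (hB1 c).le
  refine ⟨2 ^ k * B0 + 2 ^ k * (∑ c, B1 c) + 2 ^ k * (B0 * (N * 2 ^ k)), by positivity, ?_⟩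
  intro E R a hE hR δ hδ0 hδ1 hEc hRc α β
  have e : (fun x => (chc x • (R x + (((x a : ℝ) : ℂ) + 2) • E x + E x * R x)) α β)
      = fun x => (chc x * R x α β + (chc x * (((x a : ℝ) : ℂ) + 2)) * E x α β)
        + chc x * ∑ γ, E x α γ * R x γ β := by
    funext x
    simp only [Matrix.smul_apply, Matrix.add_apply, Matrix.mul_apply, smul_eq_mul]
    ring
  rw [e]
  have s1 := chc_sm.mul (hR α β)
  have s2 := (chc_sm.mul (coo2_sm a)).mul (hE α β)
  have s3 : ContDiff ℝ ∞ (fun x => ∑ γ, E x α γ * R x γ β) :=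
    ContDiff.sum fun γ _ => (hE α γ).mul (hR γ β)
  have c1 := H535.cl_mul chc_sm (hR α β) hb0 (hRc α β)
  have c2 := H535.cl_mul (chc_sm.mul (coo2_sm a)) (hE α β) (hb1 a) (hEc α β)
  have c3 : Cl k ((Finset.univ : Finset (Fin N)).card * (2 ^ k * (δ * δ)))
      (fun x => ∑ γ, E x α γ * R x γ β) :=
    H535.cl_sum Finset.univ (fun γ => (hE α γ).mul (hR γ β))
      (fun γ => H535.cl_mul (hE α γ) (hR γ β) (hEc α γ) (hRc γ β))
  rw [Finset.card_univ, Fintype.card_fin] at c3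
  have c4 := H535.cl_mul chc_sm s3 hb0 c3
  have c5 := H535.cl_add (s1.add s2) (chc_sm.mul s3) (H535.cl_add s1 s2 c1 c2) c4
  refine H535.cl_le c5 le_rfl ?_
  have hdd : δ * δ ≤ δ := mul_le_of_le_one_left hδ0 hδ1
  have h1 : (2 : ℝ) ^ k * (B1 a * δ) ≤ 2 ^ k * ((∑ c, B1 c) * δ) := by
    have := hS a
    gcongr
  have h2 : (2 : ℝ) ^ k * (B0 * (N * (2 ^ k * (δ * δ)))) ≤ 2 ^ k * (B0 * (N * (2 ^ k * δ))) := by
    gcongr
  calc 2 ^ k * (B0 * δ) + 2 ^ k * (B1 a * δ) + 2 ^ k * (B0 * (N * (2 ^ k * (δ * δ))))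
      ≤ 2 ^ k * (B0 * δ) + 2 ^ k * ((∑ c, B1 c) * δ) + 2 ^ k * (B0 * (N * (2 ^ k * δ))) := by
        linarith
    _ = _ := by ring

/-! ### the coordinates -/

/-- `χ (4 F⁻¹ X_a - (y_a + 2))`. -/
def Zf (F X : MC n N) (a : Fin n) : MC n N := fun y =>
  chc y • ((4 : ℂ) • ((fS F y)⁻¹ * fS X y) - (((y a : ℝ) : ℂ) + 2) • 1)

theorem smC_cst (C : Matrix (Fin N) (Fin N) ℂ) : SmC (fun _ : V n => C) := fun _ _ =>
  contDiff_const

theorem smC_inv {F : MC n N} (hF : SmC F) (hu : ∀ x, IsUnit (F x).det) :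
    SmC fun y => (fS F y)⁻¹ :=
  H705.UFin.SmC_inv (smC_fS hF) fun x => hu (ph 4 x)

theorem smC_Zf {F X : MC n N} (hF : SmC F) (hu : ∀ x, IsUnit (F x).det) (hX : SmC X)
    (a : Fin n) : SmC (Zf F X a) :=
  H705.UFin.SmC_smul chc_sm (H705.UFin.SmC_sub
    (H705.UFin.SmC_smul contDiff_const (SmC_mul (smC_inv hF hu) (smC_fS hX)))
    (H705.UFin.SmC_smul (coo2_sm a) (smC_cst 1)))

theorem smC_coo (a : Fin n) :
    SmC fun y : V n => ((y a : ℝ) : ℂ) • (1 : Matrix (Fin N) (Fin N) ℂ) :=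
  H705.UFin.SmC_smul (Complex.ofRealCLM.contDiff.comp (contDiff_apply ℝ ℝ a)) (smC_cst 1)

/-- The bound. -/
theorem clC_Zf (n N k : ℕ) : ∃ C ε₀ : ℝ, 0 < C ∧ 0 < ε₀ ∧ ∀ (F X : MC n N) (a : Fin n),
    SmC F → SmC X → ∀ δ, 0 ≤ δ → δ ≤ ε₀ → ClC k δ (fun x => F x - 1) →
    ClC k δ (fun x => X x - (x a : ℂ) • 1) → ClC k (C * δ) (Zf F X a) := by
  obtain ⟨CI, εI, hCI, hεI, hinv⟩ := H91.inv n N k
  obtain ⟨CZ, hCZ, hz⟩ := zbS n N k
  refine ⟨CZ * (4 + CI), min εI (1 / (4 + CI)), by positivity, by positivity, ?_⟩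
  intro F X a hF hX δ hδ0 hδ hFc hXc
  have hδI : δ ≤ εI := hδ.trans (min_le_left _ _)
  have hδ1 : (4 + CI) * δ ≤ 1 := by
    have h1 : δ ≤ 1 / (4 + CI) := hδ.trans (min_le_right _ _)
    rw [le_div_iff₀ (by positivity)] at h1
    linarith
  obtain ⟨iu, is, ic⟩ := hinv F hF δ hδ0 hδI hFc
  have icS : ClC k (CI * δ) (fun y => (fS F y)⁻¹ - 1) := by
    intro α β
    exact cl_phF (f := fun x => ((F x)⁻¹ - 1) α β) ((is α β).sub contDiff_const) (ic α β)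
  have hE : SmC fun y => (fS F y)⁻¹ - 1 := H705.UFin.SmC_sub (smC_inv hF iu) (smC_cst 1)
  -- `R = 4 (X - x_a)`
  have hXs : SmC fun x => X x - ((x a : ℝ) : ℂ) • (1 : Matrix (Fin N) (Fin N) ℂ) :=
    H705.UFin.SmC_sub hX (smC_coo a)
  obtain ⟨R, hR⟩ : ∃ R : MC n N, R = fun y => (4 : ℂ) • (X (ph 4 y) -
    ((ph 4 y a : ℝ) : ℂ) • 1) := ⟨_, rfl⟩
  have hRs : SmC R := by
    rw [hR]
    intro α β
    exact contDiff_const.mul ((hXs α β).comp (contDiff_ph 4))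
  have hRc : ClC k (4 * δ) R := by
    intro α β
    have h1 := cl_phF (hXs α β) (hXc α β)
    have h2 := H798.cl_csmul (t := (4 : ℝ)) (by norm_num) ((hXs α β).comp (contDiff_ph 4)) h1
    have h3 : (fun y => R y α β) = fun y => (4 : ℝ) •
        (X (ph 4 y) - ((ph 4 y a : ℝ) : ℂ) • (1 : Matrix (Fin N) (Fin N) ℂ)) α β := by
      funext y
      rw [hR]
      simp only [Matrix.smul_apply, smul_eq_mul, Complex.real_smul]
      norm_num
    rw [h3]
    exact h2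
  have h1 : Zf F X a = fun y => chc y • (R y + (((y a : ℝ) : ℂ) + 2) • ((fS F y)⁻¹ - 1)
      + ((fS F y)⁻¹ - 1) * R y) := by
    funext y
    unfold Zf
    congr 1
    have h2 : (4 : ℂ) • fS X y = R y + (((y a : ℝ) : ℂ) + 2) • 1 := by
      rw [hR]
      show (4 : ℂ) • X (ph 4 y) = (4 : ℂ) • (X (ph 4 y) - ((ph 4 y a : ℝ) : ℂ) • 1) +
        (((y a : ℝ) : ℂ) + 2) • 1
      rw [smul_sub, smul_smul, ph_apply]
      have h3 : (4 : ℂ) * ((y a / 4 + 1 / 2 : ℝ) : ℂ) = ((y a : ℝ) : ℂ) + 2 := by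
        push_cast
        ring
      rw [h3]
      abel
    rw [← Matrix.mul_smul, h2, Matrix.mul_add, Matrix.mul_smul, Matrix.mul_one, Matrix.sub_mul,
      Matrix.one_mul, smul_sub]
    abel
  rw [h1]
  have h2 := hz (fun y => (fS F y)⁻¹ - 1) R a hE hRs ((4 + CI) * δ) (by positivity) hδ1
    (fun α β => H535.cl_le (icS α β) le_rfl (by nlinarith))
    (fun α β => H535.cl_le (hRc α β) le_rfl (by nlinarith))
  intro α β
  refine H535.cl_le (h2 α β) le_rfl (le_of_eq (by ring))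

/-- The equation of `4 F⁻¹ X - 2`. -/
theorem MoC_lin {O : Set (V n)} (hO : IsOpen O) {s : MF n} (hs : SmM s)
    (hsy : ∀ x, (s x).IsSymm) {A : Cn n N} (hA : SmU A) {F X : MC n N} (hF : SmC F)
    (hX : SmC X) (hu : ∀ x, IsUnit (F x).det) (h1 : ∀ x ∈ O, LaC s A F x = 0)
    (h2 : ∀ x ∈ O, LaC s A X x = 0) {x : V n} (hx : x ∈ O) :
    MoC (TF s F) (qF s A F) (fun y => (4 : ℂ) • ((F y)⁻¹ * X y) - (2 : ℂ) • 1) x = 0 := by
  have hY : SmC fun y => (4 : ℂ) • ((F y)⁻¹ * X y) - (2 : ℂ) • (1 : Matrix (Fin N) (Fin N) ℂ) :=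
    H705.UFin.SmC_sub (H705.UFin.SmC_smul contDiff_const
      (SmC_mul (H705.UFin.SmC_inv hF hu) hX)) (smC_cst _)
  refine H106.gau O hO s hs hsy A hA F _ hF hY h1 (fun x hx => ?_) x hx
  have e : (fun y => F y * ((4 : ℂ) • ((F y)⁻¹ * X y) -
      (2 : ℂ) • (1 : Matrix (Fin N) (Fin N) ℂ))) = fun y => (4 : ℂ) • X y + (-2 : ℂ) • F y := by
    funext y
    rw [Matrix.mul_sub, Matrix.mul_smul, Matrix.mul_smul, ← Matrix.mul_assoc,
      Matrix.mul_nonsing_inv _ (hu y), Matrix.one_mul, Matrix.mul_one, neg_smul, sub_eq_add_neg]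
  rw [e, LaC_lin hs hA hX hF, h1 x hx, h2 x hx, smul_zero, smul_zero, add_zero]

/-- On `Bs n 2`. -/
theorem Zf_eq (F X : MC n N) (a : Fin n) {y : V n} (hy : y ∈ Bs n 2) :
    ((y a : ℝ) : ℂ) • (1 : Matrix (Fin N) (Fin N) ℂ) + Zf F X a y =
      (4 : ℂ) • ((fS F y)⁻¹ * fS X y) - (2 : ℂ) • 1 := by
  unfold Zf
  rw [chc_one hy, one_smul, add_smul]
  abel

end Vale.Agent.P088.PJ.H238
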