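import Vale.Agent.P088.R2.H238.V.Cut

/-!
# P088, row V-CG: the final gauge
-/

open MeasureTheory Set
open scoped ContDiff Matrix

noncomputable section

namespace Vale.Agent.P088.PJ.H238

open Vale.Agent.P088.LR Vale.Agent.P088.LR.U Vale.Agent.P088.LR.H158 Vale.Agent.P088.H705.UFin

variable {n N : ℕ}

/-- Equal reduced data: gauge equivalent connections. -/
theorem gauge_fin {A₁ A : Cn n N} (hA₁ : SmU A₁) (hA : SmU A) {F₁ F : MC n N} (hF₁ : SmC F₁)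
    (hF : SmC F) (hu₁ : ∀ x, IsUnit (F₁ x).det) (hP : ∀ x, PF F x = PF F₁ x)
    (hK : ∀ i x, KF A F i x = KF A₁ F₁ i x) {Ω : Set (V n)} (hoff : ∀ x ∉ Ω, F x = F₁ x) :
    ∃ U : MC n N, SmC U ∧ (∀ x, (U x)ᴴ * U x = 1) ∧ (∀ x ∉ Ω, U x = 1) ∧
      ∀ i x, A i x = (U x)ᴴ * A₁ i x * U x + (U x)ᴴ * pdm i U x := by
  obtain ⟨W, hW⟩ : ∃ W : MC n N, W = fun x => F x * (F₁ x)⁻¹ := ⟨_, rfl⟩
  have hWs : SmC W := by
    rw [hW]; exact SmC_mul hF (SmC_inv hF₁ hu₁)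
  have hWF : ∀ x, W x * F₁ x = F x := by
    intro x
    rw [hW]
    simp only [Matrix.mul_assoc]
    rw [Matrix.nonsing_inv_mul _ (hu₁ x), Matrix.mul_one]
  have hu₁' : ∀ x, IsUnit (F₁ x)ᴴ.det := by
    intro x
    rw [Matrix.det_conjTranspose]
    exact (hu₁ x).star
  have hWu : ∀ x, (W x)ᴴ * W x = 1 := by
    intro x
    have h1 : (F₁ x)ᴴ * ((W x)ᴴ * W x) * F₁ x = (F₁ x)ᴴ * 1 * F₁ x := by
      calc (F₁ x)ᴴ * ((W x)ᴴ * W x) * F₁ x = (W x * F₁ x)ᴴ * (W x * F₁ x) := by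
            rw [Matrix.conjTranspose_mul]
            simp only [Matrix.mul_assoc]
        _ = (F₁ x)ᴴ * 1 * F₁ x := by
            rw [hWF x, Matrix.mul_one]
            exact hP x
    have h2 := congrArg (fun M => ((F₁ x)ᴴ)⁻¹ * M * (F₁ x)⁻¹) h1
    rw [Matrix.mul_assoc (F₁ x)ᴴ, Matrix.mul_assoc (F₁ x)ᴴ, ← Matrix.mul_assoc ((F₁ x)ᴴ)⁻¹,
      ← Matrix.mul_assoc ((F₁ x)ᴴ)⁻¹, Matrix.nonsing_inv_mul _ (hu₁' x), Matrix.one_mul,
      Matrix.one_mul, Matrix.mul_assoc, Matrix.mul_assoc, Matrix.mul_nonsing_inv _ (hu₁ x),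
      Matrix.mul_one, Matrix.one_mul, Matrix.mul_nonsing_inv _ (hu₁ x)] at h2
    exact h2
  have hWu' : ∀ x, W x * (W x)ᴴ = 1 := fun x => mul_eq_one_comm.1 (hWu x)
  have hWA : ∀ i x, pdm i W x + A i x * W x = W x * A₁ i x := by
    intro i x
    have h1 : KF A (fun x => W x * F₁ x) i x = KF A₁ F₁ i x := by
      have h2 : (fun x => W x * F₁ x) = F := funext hWF
      rw [h2]
      exact hK i x
    rw [KF_gauge hA hWs hWu hF₁] at h1
    have h6 : KF A₁ F₁ i x = (2 : ℂ) • ((F₁ x)ᴴ * A₁ i x * F₁ x) +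
        ((F₁ x)ᴴ * pdm i F₁ x - (pdm i F₁ x)ᴴ * F₁ x) := by
      unfold KF cdC
      rw [Matrix.mul_add, Matrix.conjTranspose_add, Matrix.add_mul, Matrix.conjTranspose_mul,
        hA₁.2 i x, Matrix.mul_neg, Matrix.neg_mul, two_smul, Matrix.mul_assoc (F₁ x)ᴴ]
      abel
    rw [h6, add_left_inj] at h1
    have h7 := smul_right_injective _ (two_ne_zero (α := ℂ)) h1
    have h8 := congrArg (fun M => ((F₁ x)ᴴ)⁻¹ * M * (F₁ x)⁻¹) h7
    rw [Matrix.mul_assoc (F₁ x)ᴴ, Matrix.mul_assoc (F₁ x)ᴴ, ← Matrix.mul_assoc ((F₁ x)ᴴ)⁻¹,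
      ← Matrix.mul_assoc ((F₁ x)ᴴ)⁻¹, Matrix.nonsing_inv_mul _ (hu₁' x), Matrix.one_mul,
      Matrix.one_mul, Matrix.mul_assoc, Matrix.mul_assoc (A₁ i x),
      Matrix.mul_nonsing_inv _ (hu₁ x), Matrix.mul_one, Matrix.mul_one] at h8
    rw [← h8, ← Matrix.mul_assoc, hWu' x, Matrix.one_mul]
  refine ⟨fun x => (W x)ᴴ, SmC_star hWs, fun x => ?_, fun x hx => ?_, fun i x => ?_⟩
  · rw [Matrix.conjTranspose_conjTranspose]
    exact hWu' x
  · have h1 : W x = 1 := by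
      rw [hW]
      simp only []
      rw [hoff x hx, Matrix.mul_nonsing_inv _ (hu₁ x)]
    change (W x)ᴴ = 1
    rw [h1, Matrix.conjTranspose_one]
  · rw [Matrix.conjTranspose_conjTranspose, pdm_star hWs]
    have h1 := hWA i x
    have h2 : W x * (pdm i W x)ᴴ = -(pdm i W x * (W x)ᴴ) := by
      have h3 := pdm_mul hWs (SmC_star hWs) i x
      have h4 : (fun x => W x * (W x)ᴴ) = fun _ => (1 : Matrix (Fin N) (Fin N) ℂ) := funext hWu'
      rw [h4, pdm_const, pdm_star hWs] at h3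
      exact (neg_eq_of_add_eq_zero_right h3.symm).symm
    rw [h2, ← h1, Matrix.add_mul, Matrix.mul_assoc (A i x), hWu' x, Matrix.mul_one]
    abel

end Vale.Agent.P088.PJ.H238
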