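import Vale.Agent.P088.R2.H238.V.AffT
import Vale.Agent.P088.R2.H551.V.Spec

/-!
# P088, joint theorem: two general pairs near a constant metric, at any scale
-/

open MeasureTheory Set
open scoped ContDiff Matrix

noncomputable section

namespace Vale.Agent.P088.R2.H238.V

open Vale.Agent.P088.LR Vale.Agent.P088.LR.U Vale.Agent.P088.LR.H158 Vale.Agent.P088.LR.CF
open Vale.Agent.P088.HY.H794 Vale.Agent.P088.R2.H455.T

variable {n N : ℕ}

/-- The cut-off connection. -/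
def cu (A : Cn n N) : Cn n N := fun i y => ((chi442 y : ℝ) : ℂ) • A i y

theorem smU_cu {A : Cn n N} (hA : SmU A) : SmU (cu A) := by
  refine ⟨fun i a b => ?_, fun i x => ?_⟩
  · simp only [cu, Matrix.smul_apply, smul_eq_mul]
    exact (Complex.ofRealCLM.contDiff.comp chi_smooth442).mul (hA.1 i a b)
  · simp only [cu]
    rw [Matrix.conjTranspose_smul, hA.2 i]
    simp

theorem cu_cl {A : Cn n N} (hA : SmU A) {k : ℕ} {B e : ℝ}
    (hχ : Cl k B (chi442 : V n → ℝ)) {i : Fin n} (h : ClC k e (A i)) :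
    ClC k (2 ^ k * (B * e)) (cu A i) := by
  intro a b
  have h3 := Vale.Agent.P088.H798.cl_smul chi_smooth442 (hA.1 i a b) hχ (h a b)
  have h4 : (fun x => cu A i x a b) = fun x => chi442 x • A i x a b := by
    funext x
    simp only [cu, Matrix.smul_apply, smul_eq_mul, Complex.real_smul]
  rw [h4]
  exact h3

theorem cu_on {A : Cn n N} {i : Fin n} {y : V n} (hy : ∑ j, (y j - 1 / 2) ^ 2 ≤ 1 / 64) :
    cu A i y = A i y := by
  unfold cu
  rw [chi_one442 hy, Complex.ofReal_one, one_smul]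

/-- **Joint rigidity of two general pairs near a constant metric, at any scale.** -/
theorem rigGR (hRG : Vale.Agent.P088.PJ.RowRG) (hn : 3 ≤ n) (hN : 1 ≤ N) :
    ∃ k : ℕ, ∀ B : ℝ, 0 < B → ∃ ε > 0, Vale.Agent.P088.R2.H455.G.RigGR n N k B ε := by
  obtain ⟨k, ε₁, hε₁, hU⟩ := hRG n N hn hN
  obtain ⟨δ, hδ, hNo⟩ := H72.norm0 n k ε₁ hε₁
  obtain ⟨Bχ, hBχ, hχ⟩ := chi_cl442 n k
  refine ⟨k, fun B hB => ?_⟩
  obtain ⟨ε₀, hε₀, he1, he2⟩ : ∃ ε₀ : ℝ, 0 < ε₀ ∧ 2 ^ k * (Bχ * ε₀) ≤ ε₁ ∧ ε₀ ≤ δ := by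
    refine ⟨min (ε₁ / (2 ^ k * Bχ)) δ, lt_min (by positivity) hδ, ?_, min_le_right _ _⟩
    have h1 : min (ε₁ / (2 ^ k * Bχ)) δ ≤ ε₁ / (2 ^ k * Bχ) := min_le_left _ _
    rw [le_div_iff₀ (by positivity)] at h1
    linarith
  have ht := tt_pos n hB
  have hc := cT_pos n hB
  have hn0 : (0 : ℝ) < n := by exact_mod_cast (by omega : 0 < n)
  have hdd := dd_nonneg n hB
  have hddp : 0 < dd n B := by unfold dd; positivity
  have hm : 0 < max 1 (dd n B) ^ k := by positivity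
  obtain ⟨e1, he1'⟩ : ∃ e : ℝ, e = ε₀ / (n * n * (cT n B * cT n B) * max 1 (dd n B) ^ k) :=
    ⟨_, rfl⟩
  obtain ⟨e2, he2'⟩ : ∃ e : ℝ, e = ε₀ / (dd n B * max 1 (dd n B) ^ k) := ⟨_, rfl⟩
  have he1p : 0 < e1 := by rw [he1']; positivity
  have he2p : 0 < e2 := by rw [he2']; positivity
  refine ⟨min e1 e2, lt_min he1p he2p, ?_⟩
  intro R hR G hG hGb hGd Ω hΩ hreg hΩb g₁ g₂ s1 s2 p1 p2 hout hoff c1 c2 A₁ A₂ hA₁ hA₂
    hAoff hA1c hA2c hor
  obtain ⟨S, hS, hSp⟩ := posDef_rootP (by omega) hG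
  have hS0 : S.det ≠ 0 := hSp.ne'
  have hSu : IsUnit S.det := hS0.isUnit
  have hT := root_inv_le hB hS hGb hGd
  have hSb := root_le hB.le hS hGb
  -- the matrix of the change of variables
  obtain ⟨a, ha⟩ : ∃ a : ℝ, a = tt n B * R := ⟨_, rfl⟩
  have ha0 : 0 < a := by rw [ha]; positivity
  obtain ⟨M, hMe⟩ : ∃ M : Matrix (Fin n) (Fin n) ℝ, M = a • S⁻¹ := ⟨_, rfl⟩
  have hMp : 0 < M.det := by
    rw [hMe, Matrix.det_smul, Matrix.det_nonsing_inv, Ring.inverse_eq_inv']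
    positivity
  have hM : M.det ≠ 0 := hMp.ne'
  have hMi : M⁻¹ = a⁻¹ • S := by
    refine Matrix.inv_eq_right_inv ?_
    rw [hMe, Matrix.smul_mul, Matrix.mul_smul, smul_smul, mul_inv_cancel₀ ha0.ne', one_smul,
      Matrix.nonsing_inv_mul S hSu]
  have hMb : ∀ i j, |M i j| ≤ a * cT n B := by
    intro i j
    rw [hMe, Matrix.smul_apply, smul_eq_mul, abs_mul, abs_of_pos ha0]
    exact mul_le_mul_of_nonneg_left (hT i j) ha0.le
  have hMn : ‖ml M‖ ≤ dd n B * R := by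
    refine (ml_norm (by positivity) hMb).trans (le_of_eq ?_)
    rw [ha]; unfold dd; ring
  have hκ : 0 < (a ^ 2)⁻¹ := by positivity
  -- the domain
  have hai : ∀ {x : V n} {b : ℝ}, (∀ j, |x j| ≤ b) → ∀ j,
      |(ai M x - (hf : V n)) j| ≤ a⁻¹ * (n * ((B + 1) * b)) := by
    intro x b hx j
    have e : ai M x - (hf : V n) = a⁻¹ • (S *ᵥ x) := by
      unfold ai
      rw [add_sub_cancel_right, hMi, Matrix.smul_mulVec]
    rw [e, Pi.smul_apply, smul_eq_mul, abs_mul, abs_of_pos (inv_pos.2 ha0)]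
    exact mul_le_mul_of_nonneg_left (mulVec_abs_le (by linarith) hSb hx j) (inv_pos.2 ha0).le
  have hq : a⁻¹ * (n * ((B + 1) * R)) ≤ 1 / (64 * (n + 1)) := by
    rw [inv_mul_le_iff₀ ha0, ha, mul_one_div, le_div_iff₀ (by positivity)]
    unfold tt
    have h1 : (n : ℝ) ≤ n + 1 := by linarith
    have h2 : (n : ℝ) * ((B + 1) * R) ≤ (n + 1) * ((B + 1) * R) :=
      mul_le_mul_of_nonneg_right h1 (by positivity)
    nlinarith [mul_le_mul_of_nonneg_right h2 (by positivity : (0 : ℝ) ≤ 64 * (n + 1))]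
  have hnn : ∀ c : ℝ, 0 ≤ c → (n : ℝ) * (c * (1 / (64 * (n + 1)))) ^ 2 ≤ c ^ 2 / 4096 := by
    intro c hc0
    have h3 : (n : ℝ) * (c * (1 / (64 * (n + 1)))) ^ 2 = c ^ 2 / 4096 * (n / (n + 1) ^ 2) := by
      field_simp
      ring
    rw [h3]
    have h4 : (n : ℝ) / (n + 1) ^ 2 ≤ 1 := by
      rw [div_le_one (by positivity)]
      nlinarith
    exact mul_le_of_le_one_right (by positivity) h4
  have hmemA : ∀ {x : V n} {c : ℝ}, 0 ≤ c → (∀ j, |x j| ≤ c * R) →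
      ∑ j, (ai M x j - 1 / 2) ^ 2 ≤ c ^ 2 / 4096 := by
    intro x c hc0 hx
    have h5 : ∀ j, |ai M x j - 1 / 2| ≤ c * (1 / (64 * (n + 1))) := by
      intro j
      have h6 := hai hx j
      have h7 : a⁻¹ * (n * ((B + 1) * (c * R))) = c * (a⁻¹ * (n * ((B + 1) * R))) := by ring
      rw [h7] at h6
      exact h6.trans (mul_le_mul_of_nonneg_left hq hc0)
    exact (sum_sq_le (v := fun j => ai M x j - 1 / 2) h5).trans (hnn c hc0)
  have D := dif_wM hMp
  obtain ⟨Ω', hΩ'⟩ : ∃ Ω' : Set (V n), Ω' = ap M ⁻¹' Ω := ⟨_, rfl⟩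
  have hO' : IsOpen Ω' := by
    rw [hΩ']; exact open_pre D hΩ
  have hreg' : interior (closure Ω') = Ω' := by
    rw [hΩ']; exact reg_pre D hreg
  have hb' : Ω' ⊆ {x | ∑ j, (x j - 1 / 2) ^ 2 ≤ 1 / 1024} := by
    intro y hy
    rw [hΩ'] at hy
    have h1 := hmemA (x := ap M y) (c := 2) (by norm_num) fun j => by
      have := hΩb _ hy j
      linarith
    rw [ai_ap hM] at h1
    show ∑ j, (y j - 1 / 2) ^ 2 ≤ 1 / 1024
    linarith
  have hbd : Bornology.IsBounded Ω := by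
    refine (Metric.isBounded_closedBall (x := (0 : V n)) (r := 2 * R)).subset fun y hy => ?_
    rw [mem_closedBall_zero_iff, pi_norm_le_iff_of_nonneg (by positivity)]
    exact fun j => hΩb y hy j
  -- the metric
  have hone : ∀ g : MF n, ∀ y, ∀ i j, gsr (a ^ 2)⁻¹ M g y i j -
      (1 : Matrix (Fin n) (Fin n) ℝ) i j =
      ∑ p : Fin n × Fin n, (S⁻¹ p.1 i * S⁻¹ p.2 j) * (g (ap M y) p.1 p.2 - G p.1 p.2) := by
    intro g y i j
    have e1 : gsr (a ^ 2)⁻¹ M g y = (S⁻¹)ᵀ * g (ap M y) * S⁻¹ := by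
      unfold gsr
      rw [hMe, Matrix.transpose_smul, Matrix.smul_mul, Matrix.smul_mul, Matrix.mul_smul, smul_smul,
        smul_smul]
      have : (a ^ 2)⁻¹ * a * a = 1 := by field_simp
      rw [this, one_smul]
    have e2 : (S⁻¹)ᵀ * G * S⁻¹ = 1 := by
      rw [← hS, ← Matrix.mul_assoc, ← Matrix.transpose_mul, Matrix.mul_nonsing_inv S hSu,
        Matrix.transpose_one, Matrix.one_mul, Matrix.mul_nonsing_inv S hSu]
    have e3 : gsr (a ^ 2)⁻¹ M g y - 1 = (S⁻¹)ᵀ * (g (ap M y) - G) * S⁻¹ := by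
      rw [e1, Matrix.mul_sub, Matrix.sub_mul, e2]
    have e4 := congrFun (congrFun e3 i) j
    rw [Matrix.sub_apply] at e4
    rw [e4, Matrix.mul_apply, Fintype.sum_prod_type, Finset.sum_comm]
    refine Finset.sum_congr rfl fun b _ => ?_
    rw [Matrix.mul_apply, Finset.sum_mul]
    refine Finset.sum_congr rfl fun c _ => ?_
    rw [Matrix.transpose_apply, Matrix.sub_apply]
    ring
  have hcl : ∀ g : MF n, SmM g → (∀ i j, ClR k R (min e1 e2) (fun x => g x i j - G i j)) →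
      ∀ i j, Cl k δ (fun y =>
      gsr (a ^ 2)⁻¹ M g y i j - (1 : Matrix (Fin n) (Fin n) ℝ) i j) := by
    intro g hg hgc i j l hl y
    simp only [hone g]
    have h1 := ifd_sum_le (f := fun (p : Fin n × Fin n) (y : V n) =>
      g (ap M y) p.1 p.2 - G p.1 p.2)
      (fun p => ((hg p.1 p.2).comp (contDiff_ap M)).sub contDiff_const)
      (fun p => S⁻¹ p.1 i * S⁻¹ p.2 j) (l := l) (y := y) (C := cT n B * cT n B)
      (A := max 1 (dd n B) ^ k * e1)
      (by positivity)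
      (fun p => by
        rw [abs_mul]
        exact mul_le_mul (hT _ _) (hT _ _) (abs_nonneg _) hc.le)
      (fun p => by
        refine (ifd_ap (f := fun x => g x p.1 p.2 - G p.1 p.2) ((hg p.1 p.2).sub contDiff_const)
          l y).trans ?_
        have h2 := (hgc p.1 p.2 l hl (ap M y)).trans (min_le_left e1 e2)
        have h3 : ‖ml M‖ ^ l ≤ (dd n B * R) ^ l := pow_le_pow_left₀ (norm_nonneg _) hMn l
        have h4 : dd n B ^ l ≤ max 1 (dd n B) ^ k := by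
          calc dd n B ^ l ≤ max 1 (dd n B) ^ l := pow_le_pow_left₀ hdd (le_max_right _ _) l
            _ ≤ _ := pow_le_pow_right₀ (le_max_left _ _) hl
        calc ‖ml M‖ ^ l * ‖iteratedFDeriv ℝ l (fun x => g x p.1 p.2 - G p.1 p.2) (ap M y)‖
            ≤ (dd n B * R) ^ l * ‖iteratedFDeriv ℝ l (fun x => g x p.1 p.2 - G p.1 p.2)
                (ap M y)‖ := mul_le_mul_of_nonneg_right h3 (norm_nonneg _)
          _ = dd n B ^ l * (R ^ l * ‖iteratedFDeriv ℝ l (fun x => g x p.1 p.2 - G p.1 p.2)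
                (ap M y)‖) := by rw [mul_pow]; ring
          _ ≤ _ := mul_le_mul h4 h2 (by positivity) hm.le)
    refine h1.trans (le_trans (le_of_eq ?_) he2)
    rw [Fintype.card_prod, Fintype.card_fin, he1']
    push_cast
    field_simp
  have hgo : ∀ y ∉ bal n, gsr (a ^ 2)⁻¹ M g₁ y = 1 := by
    intro y hy
    have h1 : ∃ j, 4 * R < |ap M y j| := by
      by_contra hcon
      push Not at hcon
      apply hy
      have h2 := hmemA (x := ap M y) (c := 4) (by norm_num) hcon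
      rw [ai_ap hM] at h2
      show ∑ j, (y j - 1 / 2) ^ 2 ≤ 1 / 16
      linarith
    have h2 := hout _ h1
    ext i j
    have h3 := hone g₁ y i j
    rw [h2] at h3
    simp only [sub_self, mul_zero, Finset.sum_const_zero] at h3
    linarith
  have hgof : ∀ y ∉ Ω', gsr (a ^ 2)⁻¹ M g₂ y = gsr (a ^ 2)⁻¹ M g₁ y := by
    intro y hy
    unfold gsr
    rw [hoff (ap M y) (by rw [hΩ'] at hy; exact hy)]
  have hgs : ∀ g : MF n, SmM g → SmM (gsr (a ^ 2)⁻¹ M g) := fun g hg => smM_gsr hg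
  have hgp : ∀ g : MF n, (∀ x, (g x).PosDef) → ∀ y, (gsr (a ^ 2)⁻¹ M g y).PosDef :=
    fun g hg => posDef_gsr hκ hM hg
  -- the tensors
  obtain ⟨γ, hγ⟩ : ∃ γ : ℝ, γ = √(((a ^ 2)⁻¹) ^ n) * |M.det| * ((a ^ 2)⁻¹)⁻¹ := ⟨_, rfl⟩
  have hγ0 : 0 < γ := by
    have : 0 < |M.det| := abs_pos.2 hM
    rw [hγ]; positivity
  have hcM : 0 < M.det * γ⁻¹ := by positivity
  have hpush : ∀ g : MF n, (∀ x, (g x).PosDef) → psh (sg g) (wM M) (ap M) =
      fun y => (M.det * γ⁻¹) • sg (gsr (a ^ 2)⁻¹ M g) y := by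
    intro g hg
    funext y
    rw [psh_wM, sg_gsr hκ hM hg, ← hγ]
    simp only [smul_smul]
    congr 1
    field_simp
  have hor' := orU_push D hΩ hbd (LR.H442.smM_sg442 s1 p1) (LR.H442.smM_sg442 s2 p2)
    (LR.H442.symm_sg442 p1) (LR.H442.symm_sg442 p2) hA₁ hA₂ hor
  rw [hpush g₁ p1, hpush g₂ p2, ← hΩ'] at hor'
  have hAs : ∀ A : Cn n N, SmU A → SmU (pfo A (ap M)) := fun A hA =>
    Vale.Agent.P088.H292.UP.smU_pfo D hA
  have hor2 := orU_const (LR.H442.smM_sg442 (hgs g₁ s1) (hgp g₁ p1))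
    (LR.H442.smM_sg442 (hgs g₂ s2) (hgp g₂ p2)) (hAs A₁ hA₁) (hAs A₂ hA₂) hcM.ne' hor'
  have hb64 : ∀ y ∈ Ω', ∑ j, (y j - 1 / 2) ^ 2 ≤ 1 / 64 := by
    intro y hy
    have h1 : ∑ j, (y j - 1 / 2) ^ 2 ≤ 1 / 1024 := hb' hy
    linarith
  have hor3 : OrU Ω' (sg (gsr (a ^ 2)⁻¹ M g₁)) (cu (pfo A₁ (ap M))) (sg (gsr (a ^ 2)⁻¹ M g₂))
      (cu (pfo A₂ (ap M))) :=
    Vale.Agent.P088.H798.orU_congr hO' (fun y hy => rfl) (fun i y hy => (cu_on (hb64 y hy)).symm)
      (fun y hy => rfl) (fun i y hy => (cu_on (hb64 y hy)).symm) hor2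
  -- the connections
  have hAcl : ∀ A : Cn n N, SmU A → (∀ i, ClRC k R (min e1 e2) (A i)) →
      ∀ i, ClC k ε₀ (pfo A (ap M) i) := by
    intro A hA hAc i p q l hl y
    have e : (fun y => pfo A (ap M) i y p q) = fun y => ∑ j, M j i • A j (ap M y) p q := by
      funext y
      rw [pfo_wM, Matrix.sum_apply]
      refine Finset.sum_congr rfl fun j _ => ?_
      rw [Matrix.smul_apply, smul_eq_mul, Complex.real_smul]
    rw [e]
    have h1 := ifd_sum_leC (f := fun (j : Fin n) (y : V n) => A j (ap M y) p q)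
      (fun j => (hA.1 j p q).comp (contDiff_ap M)) (fun j => M j i) (l := l) (y := y)
      (C := a * cT n B) (A := max 1 (dd n B) ^ k * e2 / R) (by positivity) (fun j => hMb j i)
      (fun j => by
        refine (ifd_ap (f := fun x => A j x p q) (hA.1 j p q) l y).trans ?_
        have h2 := (hAc j p q l hl (ap M y)).trans (min_le_right e1 e2)
        have h3 : ‖ml M‖ ^ l ≤ (dd n B * R) ^ l := pow_le_pow_left₀ (norm_nonneg _) hMn l
        have h4 : dd n B ^ l ≤ max 1 (dd n B) ^ k := by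
          calc dd n B ^ l ≤ max 1 (dd n B) ^ l := pow_le_pow_left₀ hdd (le_max_right _ _) l
            _ ≤ _ := pow_le_pow_right₀ (le_max_left _ _) hl
        rw [le_div_iff₀ hR]
        calc ‖ml M‖ ^ l * ‖iteratedFDeriv ℝ l (fun x => A j x p q) (ap M y)‖ * R
            ≤ (dd n B * R) ^ l * ‖iteratedFDeriv ℝ l (fun x => A j x p q) (ap M y)‖ * R :=
              mul_le_mul_of_nonneg_right (mul_le_mul_of_nonneg_right h3 (norm_nonneg _)) hR.le
          _ = dd n B ^ l * (R ^ (l + 1) * ‖iteratedFDeriv ℝ l (fun x => A j x p q) (ap M y)‖) := by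
              rw [mul_pow, pow_succ]; ring
          _ ≤ _ := mul_le_mul h4 h2 (by positivity) hm.le)
    refine h1.trans (le_of_eq ?_)
    rw [Fintype.card_fin, he2', ha]
    have e3 : (n : ℝ) * (tt n B * R * cT n B * (max 1 (dd n B) ^ k *
        (ε₀ / (dd n B * max 1 (dd n B) ^ k)) / R)) = (n * (tt n B * cT n B)) * ε₀ / dd n B := by
      field_simp
    rw [e3]
    have e4 : (n : ℝ) * (tt n B * cT n B) = dd n B := rfl
    rw [e4]
    field_simp
  have hcl2 : ∀ A : Cn n N, SmU A → (∀ i, ClRC k R (min e1 e2) (A i)) →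
      ∀ i, ClC k ε₁ (cu (pfo A (ap M)) i) := by
    intro A hA hAc i p q
    exact Vale.Agent.P088.LR.H72.cl_mono (cu_cl (hAs A hA) hχ (hAcl A hA hAc i) p q) he1
  obtain ⟨w, K, hD, hpsh, U', hU1, hU2, hU3, hU4⟩ := hU Ω' hO' hreg' (fun y hy => hb64 y hy)
    (sg (gsr (a ^ 2)⁻¹ M g₁)) (sg (gsr (a ^ 2)⁻¹ M g₂))
    (LR.H442.smM_sg442 (hgs g₁ s1) (hgp g₁ p1)) (LR.H442.smM_sg442 (hgs g₂ s2) (hgp g₂ p2))
    (LR.H442.symm_sg442 (hgp g₁ p1)) (LR.H442.symm_sg442 (hgp g₂ p2))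
    (fun x hx => by
      unfold sg
      rw [hgo x hx]
      exact sg_one_mat)
    (fun x hx => by
      unfold sg
      rw [hgof x hx])
    (hNo _ (hgs g₁ s1) (hcl g₁ s1 c1)) (hNo _ (hgs g₂ s2) (hcl g₂ s2 c2))
    (cu (pfo A₁ (ap M))) (cu (pfo A₂ (ap M))) (smU_cu (hAs A₁ hA₁)) (smU_cu (hAs A₂ hA₂))
    (fun i x hx => by
      unfold cu
      rw [chi_zero442 hx, Complex.ofReal_zero, zero_smul])
    (fun i x hx => by
      unfold cu pfo
      rw [hΩ'] at hx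
      congr 1
      refine Finset.sum_congr rfl fun j _ => ?_
      rw [hAoff j _ hx])
    (hcl2 A₁ hA₁ hA1c) (hcl2 A₂ hA₂ hA2c) hor3
  have hiso := iso_dif hn (hgp g₁ p1) (hgp g₂ p2) hD hpsh
  have hD2 : Dif (ap M ⁻¹' Ω) w K := by rw [← hΩ']; exact hD
  refine ⟨wb M w, fun x => ap M (K (ai M x)), fun x => U' (ai M x), dif_wb hM hD2,
    iso_wb hM hκ.ne' hD.sw hiso, fun p q => (hU1 p q).comp (contDiff_ai M), fun x => hU2 _,
    fun x hx => hU3 _ fun h' => hx ?_, fun i x hx => gau_wb hMp hD.sw hU1 ?_ i rfl⟩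
  · rw [hΩ'] at h'
    have h1 : ap M (ai M x) ∈ Ω := h'
    rwa [ap_ai hM] at h1
  · have hy : ai M x ∈ Ω' := by
      rw [hΩ']
      show ap M (ai M x) ∈ Ω
      rwa [ap_ai hM]
    intro k
    have h1 := hU4 k (ai M x)
    rw [cu_on (hb64 _ hy)] at h1
    rw [h1]
    have h2 : pb w (cu (pfo A₁ (ap M))) k (ai M x) = pb w (pfo A₁ (ap M)) k (ai M x) := by
      unfold pb
      refine Finset.sum_congr rfl fun j _ => ?_
      rw [cu_on (hb64 _ (H158.H_mem hD hy))]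
    rw [h2]

end Vale.Agent.P088.R2.H238.V
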