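import Vale.Agent.P088.R2.H551.V.Spec
import Vale.Agent.P088.R2.H238.Aff
import Vale.Agent.P088.H798.UTop
import Vale.Agent.P088.H634.UCore
import Vale.Agent.P088.H292.UPush

/-!
# P088, row V-CG: the change of coordinates `y = 4 (x - 1/2)` for pairs
-/

open MeasureTheory Set
open scoped ContDiff Matrix

noncomputable section

namespace Vale.Agent.P088.PJ.H238

open Vale.Agent.P088.LR Vale.Agent.P088.LR.U Vale.Agent.P088.LR.H158 Vale.Agent.P088.LR.H925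
open Vale.Agent.P088.HY (VV Bs Bn Un DB)

variable {n N : ℕ}

/-! ### the objects in the new coordinates -/

/-- The tensor. -/
def sS (s : MF n) : MF n := fun y => s (ph 4 y)

/-- The connection. -/
def aS (A : Cn n N) : Cn n N := fun i y => ((4⁻¹ : ℝ) : ℂ) • A i (ph 4 y)

/-- A matrix function. -/
def fS (F : MC n N) : MC n N := fun y => F (ph 4 y)

theorem four_ne : (4 : ℝ) ≠ 0 := by norm_num

theorem smM_sS {s : MF n} (hs : SmM s) : SmM (sS s) := fun i j => (hs i j).comp (contDiff_ph 4)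

theorem smC_fS {F : MC n N} (hF : SmC F) : SmC (fS F) := fun a b => (hF a b).comp (contDiff_ph 4)

theorem smU_aS {A : Cn n N} (hA : SmU A) : SmU (aS A) := by
  refine ⟨fun i a b => ?_, fun i x => ?_⟩
  · simp only [aS, Matrix.smul_apply, smul_eq_mul]
    exact contDiff_const.mul ((hA.1 i a b).comp (contDiff_ph 4))
  · simp only [aS]
    rw [Matrix.conjTranspose_smul, hA.2 i]
    simp

theorem rs_sS (s : MF n) : rs 4 (sS s) = s := by
  funext x
  simp only [rs, sS, ph_ps four_ne]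

theorem rA_aS (A : Cn n N) : H798.rA 4 (aS A) = A := by
  funext i x
  simp only [H798.rA, aS, ph_ps four_ne, smul_smul]
  rw [← Complex.ofReal_mul, mul_inv_cancel₀ four_ne, Complex.ofReal_one, one_smul]

/-! ### the operators -/

theorem lav_S {s : MF n} (hs : SmM s) {A : Cn n N} (hA : SmU A) {U : V n → Fin N → ℂ}
    (hU : ContDiff ℝ ∞ U) (y : V n) :
    lav (sS s) (aS A) (fun y => U (ph 4 y)) y =
      (((4⁻¹ : ℝ) : ℂ) ^ 2) • lav s A U (ph 4 y) := by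
  have h := H798.lav_ph (t := 4) four_ne (smM_sS hs) (smU_aS hA) hU y
  rw [rs_sS, rA_aS] at h
  exact h

theorem LaC_S {s : MF n} (hs : SmM s) {A : Cn n N} (hA : SmU A) {F : MC n N} (hF : SmC F)
    (y : V n) : LaC (sS s) (aS A) (fS F) y = (((4⁻¹ : ℝ) : ℂ) ^ 2) • LaC s A F (ph 4 y) := by
  ext a b
  rw [H292.UP.LaC_col (smM_sS hs) (smU_aS hA) (smC_fS hF), Matrix.smul_apply,
    H292.UP.LaC_col hs hA hF]
  have h := lav_S hs hA (U := fun x c => F x c b) (contDiff_pi.2 fun c => hF c b) y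
  exact congrFun h a

theorem fac_ne (n : ℕ) : ((4 ^ 2 * fac n 4 : ℝ) : ℂ) ≠ 0 := by
  have h : (4 ^ 2 * fac n 4 : ℝ) ≠ 0 := by
    unfold fac
    positivity
  exact_mod_cast h

theorem pre_pre (Ω : Set (V n)) : ps 4 ⁻¹' (ph 4 ⁻¹' Ω) = Ω := by
  ext x
  show ph 4 (ps 4 x) ∈ Ω ↔ x ∈ Ω
  rw [ph_ps four_ne]

theorem ea_S {Ω : Set (V n)} (hΩ : IsOpen Ω) (s : MF n) (A : Cn n N) {u v : V n → Fin N → ℂ}
    (hu : ContDiff ℝ ∞ u) (hv : ContDiff ℝ ∞ v) :
    ea Ω s A (fun x => u (ps 4 x)) (fun x => v (ps 4 x)) =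
      ((4 ^ 2 * fac n 4 : ℝ) : ℂ) * ea (ph 4 ⁻¹' Ω) (sS s) (aS A) u v := by
  have h := H798.ea_ph (t := 4) four_ne (Ω := ph 4 ⁻¹' Ω)
    (hΩ.preimage (contDiff_ph 4).continuous).measurableSet (sS s) (aS A)
    (U := fun x => u (ps 4 x)) (W := fun x => v (ps 4 x)) (hu.comp (contDiff_ps 4))
    (hv.comp (contDiff_ps 4))
  rw [rs_sS, rA_aS, pre_pre] at h
  rw [h]
  congr 2
  · funext y
    show u (ps 4 (ph 4 y)) = u y
    rw [ps_ph four_ne]
  · funext y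
    show v (ps 4 (ph 4 y)) = v y
    rw [ps_ph four_ne]

/-- Transport of the orthogonality. -/
theorem orU_S {Ω : Set (V n)} (hΩ : IsOpen Ω) {s₁ s₂ : MF n} {A₁ A₂ : Cn n N} (hs₁ : SmM s₁)
    (hs₂ : SmM s₂) (hA₁ : SmU A₁) (hA₂ : SmU A₂) (h : OrU Ω s₁ A₁ s₂ A₂) :
    OrU (ph 4 ⁻¹' Ω) (sS s₁) (aS A₁) (sS s₂) (aS A₂) := by
  intro u v hu hv h1 h2
  have hb : ∀ {s : MF n} {A : Cn n N}, SmM s → SmU A → ∀ {u : V n → Fin N → ℂ},
      ContDiff ℝ ∞ u → (∀ y ∈ ph 4 ⁻¹' Ω, lav (sS s) (aS A) u y = 0) →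
      ∀ x ∈ Ω, lav s A (fun x => u (ps 4 x)) x = 0 := by
    intro s A hs hA u hu h x hx
    have e := lav_S hs hA (U := fun x => u (ps 4 x)) (hu.comp (contDiff_ps 4)) (ps 4 x)
    have e2 : (fun y => u (ps 4 (ph 4 y))) = u := by
      funext y
      rw [ps_ph four_ne]
    have hx' : ps 4 x ∈ ph 4 ⁻¹' Ω := by
      show ph 4 (ps 4 x) ∈ Ω
      rw [ph_ps four_ne]; exact hx
    rw [e2, h _ hx', ph_ps four_ne] at e
    refine (smul_eq_zero.1 e.symm).resolve_left ?_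
    norm_num
  have e := h _ _ (hu.comp (contDiff_ps 4)) (hv.comp (contDiff_ps 4)) (hb hs₁ hA₁ hu h1)
    (hb hs₂ hA₂ hv h2)
  have e1 := ea_S hΩ s₁ A₁ hu hv
  have e2 := ea_S hΩ s₂ A₂ hu hv
  have e3 : ((4 ^ 2 * fac n 4 : ℝ) : ℂ) * ea (ph 4 ⁻¹' Ω) (sS s₁) (aS A₁) u v =
      ((4 ^ 2 * fac n 4 : ℝ) : ℂ) * ea (ph 4 ⁻¹' Ω) (sS s₂) (aS A₂) u v := by
    rw [← e1, ← e2]; exact e
  exact mul_left_cancel₀ (fac_ne n) e3

/-! ### derivatives -/

theorem pdm_S {F : MC n N} (hF : SmC F) (i : Fin n) (y : V n) :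
    pdm i (fS F) y = ((4⁻¹ : ℝ) : ℂ) • pdm i F (ph 4 y) := by
  ext a b
  simp only [pdm, Matrix.of_apply, Matrix.smul_apply, smul_eq_mul]
  have h := pd_ph i ((hF a b).differentiable (by simp)) 4 y
  show pd i (fun y => F (ph 4 y) a b) y = _
  rw [h, Complex.real_smul]

theorem cdC_S (A : Cn n N) {F : MC n N} (hF : SmC F) (i : Fin n) (y : V n) :
    cdC (aS A) i (fS F) y = ((4⁻¹ : ℝ) : ℂ) • cdC A i F (ph 4 y) := by
  unfold cdC
  rw [pdm_S hF, smul_add]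
  simp only [aS, fS, Matrix.smul_mul]

theorem KF_S (A : Cn n N) {F : MC n N} (hF : SmC F) (i : Fin n) (y : V n) :
    KF (aS A) (fS F) i y = ((4⁻¹ : ℝ) : ℂ) • KF A F i (ph 4 y) := by
  unfold KF
  rw [cdC_S A hF, Matrix.conjTranspose_smul, Complex.star_def, Complex.conj_ofReal, smul_sub]
  simp only [fS, Matrix.mul_smul, Matrix.smul_mul]

theorem PF_S (F : MC n N) (y : V n) : PF (fS F) y = PF F (ph 4 y) := rfl

/-! ### the domain -/

theorem reg_S {Ω : Set (V n)} (h : interior (closure Ω) = Ω) :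
    interior (closure (ph 4 ⁻¹' Ω)) = ph 4 ⁻¹' Ω := by
  have e1 := (hm (n := n) 4 four_ne).symm.preimage_closure Ω
  have e2 := (hm (n := n) 4 four_ne).symm.preimage_interior (closure Ω)
  have e3 : (hm (n := n) 4 four_ne).symm ⁻¹' Ω = ph 4 ⁻¹' Ω := rfl
  rw [e1, e3, h, e3] at e2
  exact e2.symm

theorem ph_apply (y : V n) (j : Fin n) : ph 4 y j = y j / 4 + 1 / 2 := by
  simp only [ph, Pi.add_apply, Pi.smul_apply, smul_eq_mul]
  ring

theorem sq_ph (y : V n) : ∑ j, (ph 4 y j - 1 / 2) ^ 2 = HY.sq y / 16 := by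
  unfold HY.sq
  rw [Finset.sum_div]
  refine Finset.sum_congr rfl fun j _ => ?_
  rw [ph_apply]
  ring

theorem sub_S {Ω : Set (V n)} (h : Ω ⊆ bls n) : ph 4 ⁻¹' Ω ⊆ bl0 n := by
  intro y hy
  have h1 : ∑ j, (ph 4 y j - 1 / 2) ^ 2 ≤ 1 / 64 := h hy
  rw [sq_ph] at h1
  show HY.sq y ≤ 1 / 4
  linarith

theorem bal_S {y : V n} (h : 1 < HY.sq y) : ph 4 y ∉ CF.bal n := by
  intro hy
  have h1 : ∑ j, (ph 4 y j - 1 / 2) ^ 2 ≤ 1 / 16 := hy
  rw [sq_ph] at h1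
  linarith

theorem cube_S {y : V n} (h : y ∈ Bs n 2) : ph 4 y ∈ cube n := by
  have h1 : HY.sq y < 2 ^ 2 := h
  intro j
  have h3 : y j ^ 2 < 2 ^ 2 := lt_of_le_of_lt
    (Finset.single_le_sum (f := fun j => y j ^ 2) (fun _ _ => sq_nonneg _) (Finset.mem_univ j)) h1
  have h4 : |y j| < 2 := by
    have := abs_lt_of_sq_lt_sq h3 (by norm_num)
    exact this
  rw [ph_apply]
  have h7 := abs_lt.1 h4
  constructor <;> linarith [h7.1, h7.2]

theorem isOpen_Bs (ρ : ℝ) : IsOpen (Bs n ρ) := by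
  have h : Continuous (HY.sq : V n → ℝ) := by
    unfold HY.sq
    exact continuous_finsetSum _ fun j _ => (continuous_apply j).pow 2
  exact isOpen_lt h continuous_const

theorem bl0_Bs : bl0 n ⊆ Bs n 2 := by
  intro y hy
  have h1 : HY.sq y ≤ 1 / 4 := hy
  show HY.sq y < 2 ^ 2
  linarith

/-! ### bounds -/

theorem cl_phF {E : Type*} [NormedAddCommGroup E] [NormedSpace ℝ E] {f : V n → E}
    (hf : ContDiff ℝ ∞ f) {k : ℕ} {e : ℝ} (h : Cl k e f) : Cl k e (fun y => f (ph 4 y)) := by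
  intro l hl x
  set c : V n := fun _ => (1 / 2 : ℝ) with hc
  have hg : ContDiff ℝ ∞ (fun z => f (z + c)) := hf.comp (contDiff_id.add contDiff_const)
  have h2 := ContinuousLinearMap.iteratedFDeriv_comp_right
    ((4 : ℝ)⁻¹ • ContinuousLinearMap.id ℝ (V n))
    (f := fun z => f (z + c)) (n := ∞) hg x (i := l) (by exact_mod_cast le_top)
  have h1 : (fun y => f (ph 4 y)) =
      (fun z => f (z + c)) ∘ ⇑((4 : ℝ)⁻¹ • ContinuousLinearMap.id ℝ (V n)) := by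
    funext y
    simp [ph, hc]
  rw [h1, h2]
  have h0 : 0 ≤ e := (norm_nonneg _).trans (h l hl x)
  refine (ContinuousMultilinearMap.norm_compContinuousLinearMap_le _ _).trans ?_
  have h3 : ‖(4 : ℝ)⁻¹ • ContinuousLinearMap.id ℝ (V n)‖ ≤ 1 := by
    rw [norm_smul]
    calc ‖(4 : ℝ)⁻¹‖ * ‖ContinuousLinearMap.id ℝ (V n)‖ ≤ 1 * 1 := by
          gcongr
          · norm_num
          · exact ContinuousLinearMap.norm_id_le
      _ = 1 := by norm_num
  have h4 := iteratedFDeriv_comp_add_right (𝕜 := ℝ) (f := f) l c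
    (((4 : ℝ)⁻¹ • ContinuousLinearMap.id ℝ (V n)) x)
  rw [h4]
  rw [Finset.prod_const, Finset.card_univ, Fintype.card_fin]
  calc _ ≤ e * 1 := by
        gcongr
        · exact h l hl _
        · exact pow_le_one₀ (norm_nonneg _) h3
    _ = e := mul_one e

theorem clC_fS {F : MC n N} (hF : SmC F) (C : Matrix (Fin N) (Fin N) ℂ) {k : ℕ} {e : ℝ}
    (h : ClC k e (fun x => F x - C)) : ClC k e (fun y => fS F y - C) := fun a b =>
  cl_phF (f := fun x => (F x - C) a b) ((hF a b).sub contDiff_const) (h a b)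

theorem clC_aS {A : Cn n N} (hA : SmU A) {k : ℕ} {e : ℝ} (i : Fin n)
    (h : ClC k e (A i)) : ClC k e (aS A i) := by
  intro a b
  have h1 := cl_phF (hA.1 i a b) (h a b)
  have h2 := H798.cl_csmul (t := (4⁻¹ : ℝ)) (by norm_num) ((hA.1 i a b).comp (contDiff_ph 4)) h1
  have h3 : (fun y => aS A i y a b) = fun y => (4⁻¹ : ℝ) • A i (ph 4 y) a b := by
    funext y
    simp only [aS, Matrix.smul_apply, smul_eq_mul, Complex.real_smul]
  rw [h3]
  have h0 : 0 ≤ e := H535.cl_nonneg h1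
  exact H535.cl_le h2 le_rfl (by linarith)

theorem cl_sS {s : MF n} (hs : SmM s) {k : ℕ} {e : ℝ}
    (h : ∀ i j, Cl k e (fun x => s x i j - (1 : Matrix (Fin n) (Fin n) ℝ) i j)) :
    ∀ i j, Cl k e (fun y => sS s y i j - (1 : Matrix (Fin n) (Fin n) ℝ) i j) := fun i j =>
  cl_phF (f := fun x => s x i j - (1 : Matrix (Fin n) (Fin n) ℝ) i j)
    ((hs i j).sub contDiff_const) (h i j)

end Vale.Agent.P088.PJ.H238
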